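import Vale.Agent.P125.Final

theorem Vale.Agent.Results.P125.MarkovTypeSuperreflexive.result :
    ∀ (X : Type*) [NormedAddCommGroup X] [NormedSpace ℝ X] [CompleteSpace X] (p : ℝ), 1 < p →
      Vale.Agent.P125.HasMarkovType X p →
      (∃ N : Seminorm ℝ X, Vale.Agent.P125.IsEquivalentNorm N ∧
          Vale.Agent.P125.IsUniformlySmooth N) ∧
        (∃ N : Seminorm ℝ X, Vale.Agent.P125.IsEquivalentNorm N ∧
          Vale.Agent.P125.IsUniformlyConvex N) :=
  fun _ _ _ _ _ hp hX => Vale.Agent.P125.main hp hX
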